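import Mathlib

/-!
# P079: the fixed point property for nonexpansive maps: definitions
-/

namespace Vale.Agent.Lib.P079

universe u

/-- A real normed space is reflexive if the canonical map into its bidual is onto. -/
def Reflexive (X : Type u) [NormedAddCommGroup X] [NormedSpace ℝ X] : Prop :=
  Function.Surjective (NormedSpace.inclusionInDoubleDual ℝ X)

/-- `T` maps `C` into itself and is nonexpansive on `C`. -/
def NonexpansiveOn {X : Type u} [NormedAddCommGroup X] (T : X → X) (C : Set X) : Prop :=
  Set.MapsTo T C C ∧ ∀ a ∈ C, ∀ b ∈ C, ‖T a - T b‖ ≤ ‖a - b‖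

/-- The fixed point property: every nonexpansive selfmap of a nonempty closed bounded convex set
has a fixed point in that set. -/
def FPP (X : Type u) [NormedAddCommGroup X] [NormedSpace ℝ X] : Prop :=
  ∀ C : Set X, C.Nonempty → IsClosed C → Bornology.IsBounded C → Convex ℝ C →
    ∀ T : X → X, NonexpansiveOn T C → ∃ x ∈ C, T x = x

end Vale.Agent.Lib.P079
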