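import Vale.Agent.Lib.P079.Defs

/-!
# P079: a separable closed convex invariant subset
-/

namespace Vale.Agent.Lib.P079

open Set TopologicalSpace

universe u

variable {X : Type u} [NormedAddCommGroup X] [NormedSpace ℝ X]

/-- the increasing sequence of convex sets generated by `x0` and `T` -/
noncomputable def Dseq (T : X → X) (x0 : X) : ℕ → Set X
  | 0 => {x0}
  | (k + 1) => convexHull ℝ (Dseq T x0 k ∪ T '' Dseq T x0 k)

theorem Dseq_subset_succ (T : X → X) (x0 : X) (k : ℕ) : Dseq T x0 k ⊆ Dseq T x0 (k + 1) :=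
  fun _ hx => subset_convexHull ℝ _ (Or.inl hx)

theorem Dseq_image_subset (T : X → X) (x0 : X) (k : ℕ) : T '' Dseq T x0 k ⊆ Dseq T x0 (k + 1) :=
  fun _ hx => subset_convexHull ℝ _ (Or.inr hx)

theorem Dseq_mono (T : X → X) (x0 : X) : Monotone (Dseq T x0) :=
  monotone_nat_of_le_succ (Dseq_subset_succ T x0)

theorem Dseq_convex (T : X → X) (x0 : X) (k : ℕ) : Convex ℝ (Dseq T x0 k) := by
  cases k with
  | zero => exact convex_singleton x0
  | succ k => exact convex_convexHull ℝ _

theorem Dseq_subset {T : X → X} {C : Set X} (hC : Convex ℝ C) (hT : MapsTo T C C) {x0 : X}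
    (hx0 : x0 ∈ C) (k : ℕ) : Dseq T x0 k ⊆ C := by
  induction k with
  | zero => intro x hx; rw [Dseq, mem_singleton_iff] at hx; rw [hx]; exact hx0
  | succ k ih =>
    refine convexHull_min ?_ hC
    rintro x (hx | ⟨y, hy, rfl⟩)
    · exact ih hx
    · exact hT (ih hy)

theorem Dseq_separable {T : X → X} {C : Set X} (hC : Convex ℝ C) (hT : NonexpansiveOn T C) {x0 : X}
    (hx0 : x0 ∈ C) (k : ℕ) : IsSeparable (Dseq T x0 k) := by
  induction k with
  | zero => exact (finite_singleton x0).isSeparable
  | succ k ih =>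
    have hcont : ContinuousOn T (Dseq T x0 k) := by
      have hl : LipschitzOnWith 1 T C := by
        refine LipschitzOnWith.of_dist_le_mul ?_
        intro a ha b hb
        rw [dist_eq_norm, dist_eq_norm]
        simpa using hT.2 a ha b hb
      exact hl.continuousOn.mono (Dseq_subset hC hT.1 hx0 k)
    have h1 : IsSeparable (T '' Dseq T x0 k) := by
      have : SeparableSpace (Dseq T x0 k) := ih.separableSpace
      have h := isSeparable_range (continuousOn_iff_continuous_domRestrict.1 hcont)
      rwa [Set.range_domRestrict] at h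
    have h2 : IsSeparable (Dseq T x0 k ∪ T '' Dseq T x0 k) := ih.union h1
    exact (h2.span (R := ℝ)).mono
      ((convexHull_subset_affineSpan _).trans (fun _ hx => affineSpan_subset_span hx))

/-- **Invariant separable subsets.** Every point of a closed convex set `C` lies in a separable
closed convex subset of `C` which is invariant under a given nonexpansive selfmap of `C`. -/
theorem exists_separable_invariant {T : X → X} {C : Set X} (hCc : IsClosed C) (hC : Convex ℝ C)
    (hT : NonexpansiveOn T C) {x0 : X} (hx0 : x0 ∈ C) :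
    ∃ D : Set X, x0 ∈ D ∧ D ⊆ C ∧ IsClosed D ∧ Convex ℝ D ∧ IsSeparable D ∧ MapsTo T D D := by
  set U : Set X := ⋃ k, Dseq T x0 k with hU
  have hUC : U ⊆ C := iUnion_subset fun k => Dseq_subset hC hT.1 hx0 k
  have hUconv : Convex ℝ U :=
    (Dseq_mono T x0).directed_le.convex_iUnion fun k => Dseq_convex T x0 k
  have hUsep : IsSeparable U := IsSeparable.iUnion fun k => Dseq_separable hC hT hx0 k
  have hUT : MapsTo T U U := by
    intro x hx
    obtain ⟨k, hk⟩ := mem_iUnion.1 hx
    exact mem_iUnion.2 ⟨k + 1, Dseq_image_subset T x0 k ⟨x, hk, rfl⟩⟩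
  have hclC : closure U ⊆ C := closure_minimal hUC hCc
  refine ⟨closure U, subset_closure (mem_iUnion.2 ⟨0, rfl⟩), hclC, isClosed_closure,
    hUconv.closure, hUsep.closure, ?_⟩
  intro x hx
  rw [Metric.mem_closure_iff]
  intro ε hε
  obtain ⟨y, hy, hxy⟩ := Metric.mem_closure_iff.1 hx ε hε
  refine ⟨T y, hUT hy, ?_⟩
  rw [dist_eq_norm] at hxy ⊢
  exact (hT.2 x (hclC hx) y (hUC hy)).trans_lt hxy

end Vale.Agent.Lib.P079
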