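import Vale.Agent.Lib.P079.Inv

/-!
# P079: the fixed point property is separably determined
-/

namespace Vale.Agent.Lib.P079

open Set TopologicalSpace

universe u

variable {X : Type u} [NormedAddCommGroup X] [NormedSpace ℝ X]

/-- the fixed point property passes to closed subspaces -/
theorem FPP.subspace (h : FPP X) (Y : Submodule ℝ X) (hY : IsClosed (Y : Set X)) : FPP Y := by
  classical
  intro C hne hcl hbd hconv T hT
  set T' : X → X := fun x => if hx : x ∈ Y then ((T ⟨x, hx⟩ : Y) : X) else x with hT'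
  have hval : ∀ y : Y, T' (y : X) = (T y : X) := by
    intro y
    simp only [hT', y.2, dite_true]
  have hclosed : IsClosed ((Subtype.val : Y → X) '' C) :=
    hY.isClosedEmbedding_subtypeVal.isClosedMap _ hcl
  have hbdd : Bornology.IsBounded ((Subtype.val : Y → X) '' C) := by
    obtain ⟨R, hR⟩ := hbd.exists_norm_le
    refine (isBounded_iff_forall_norm_le).2 ⟨R, ?_⟩
    rintro _ ⟨y, hy, rfl⟩
    exact hR y hy
  have hcv : Convex ℝ ((Subtype.val : Y → X) '' C) := hconv.linear_image Y.subtype
  have hNE : NonexpansiveOn T' ((Subtype.val : Y → X) '' C) := by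
    constructor
    · rintro _ ⟨y, hy, rfl⟩
      exact ⟨T y, hT.1 hy, (hval y).symm⟩
    · rintro _ ⟨a, ha, rfl⟩ _ ⟨b, hb, rfl⟩
      rw [hval, hval]
      exact hT.2 a ha b hb
  obtain ⟨x, hx, hfix⟩ := h _ (hne.image _) hclosed hbdd hcv T' hNE
  obtain ⟨y, hy, rfl⟩ := hx
  exact ⟨y, hy, Subtype.ext (by rw [← hval]; exact hfix)⟩

/-- the fixed point property follows from the same property of all separable closed subspaces -/
theorem FPP.of_separable_subspaces
    (h : ∀ Y : Submodule ℝ X, IsClosed (Y : Set X) → IsSeparable (Y : Set X) → FPP Y) : FPP X := by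
  classical
  intro C hne hcl hbd hconv T hT
  obtain ⟨x0, hx0⟩ := hne
  obtain ⟨D, hx0D, hDC, hDcl, hDconv, hDsep, hDT⟩ := exists_separable_invariant hcl hconv hT hx0
  set Y : Submodule ℝ X := (Submodule.span ℝ D).topologicalClosure with hYdef
  have hYcl : IsClosed (Y : Set X) := Submodule.isClosed_topologicalClosure _
  have hYsep : IsSeparable (Y : Set X) := by
    rw [hYdef, Submodule.topologicalClosure_coe]
    exact hDsep.span.closure
  have hDY : ∀ x ∈ D, x ∈ Y := fun x hx =>
    Submodule.le_topologicalClosure _ (Submodule.subset_span hx)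
  set T' : Y → Y := fun y => if hy : (y : X) ∈ D then ⟨T y, hDY _ (hDT hy)⟩ else y with hT'
  have hval : ∀ y : Y, (y : X) ∈ D → ((T' y : Y) : X) = T y := by
    intro y hy
    simp only [hT', hy, dite_true]
  have hbdd : Bornology.IsBounded ((Subtype.val : Y → X) ⁻¹' D) := by
    obtain ⟨R, hR⟩ := hbd.exists_norm_le
    refine (isBounded_iff_forall_norm_le).2 ⟨R, ?_⟩
    intro y hy
    exact hR y (hDC hy)
  have hcv : Convex ℝ ((Subtype.val : Y → X) ⁻¹' D) := hDconv.linear_preimage Y.subtype
  have hNE : NonexpansiveOn T' ((Subtype.val : Y → X) ⁻¹' D) := by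
    constructor
    · intro y hy
      change ((T' y : Y) : X) ∈ D
      rw [hval y hy]
      exact hDT hy
    · intro a ha b hb
      have e : ‖T' a - T' b‖ = ‖((T' a : Y) : X) - ((T' b : Y) : X)‖ := rfl
      rw [e, hval a ha, hval b hb]
      exact hT.2 a (hDC ha) b (hDC hb)
  obtain ⟨y, hy, hfix⟩ := h Y hYcl hYsep ((Subtype.val : Y → X) ⁻¹' D) ⟨⟨x0, hDY _ hx0D⟩, hx0D⟩
    (hDcl.preimage continuous_subtype_val) hbdd hcv T' hNE
  refine ⟨y, hDC hy, ?_⟩
  rw [← hval y hy, hfix]

/-- a closed subspace of a reflexive space is reflexive -/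
theorem Reflexive.subspace (h : Reflexive X) (Y : Submodule ℝ X) (hY : IsClosed (Y : Set X)) :
    Reflexive Y := by
  intro φ
  obtain ⟨x, hx⟩ := h (φ.comp ((Y.subtypeL).precomp ℝ))
  have hxf : ∀ f : StrongDual ℝ X, f x = φ (f.comp Y.subtypeL) := by
    intro f
    have h1 := congrArg (fun F => F f) hx
    simpa [NormedSpace.dual_def] using h1
  have hxY : x ∈ Y := by
    by_contra hn
    obtain ⟨f, u, hf1, hf2⟩ :=
      geometric_hahn_banach_closed_point (s := (Y : Set X)) Y.convex hY hn
    have hu : 0 < u := by simpa using hf1 0 Y.zero_mem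
    have hzero : ∀ y ∈ Y, f y = 0 := by
      intro y hy
      by_contra hne
      have h2 := hf1 ((u / f y) • y) (Y.smul_mem _ hy)
      rw [map_smul, smul_eq_mul, div_mul_cancel₀ _ hne] at h2
      exact lt_irrefl _ h2
    have h3 : f.comp Y.subtypeL = 0 := by
      ext y
      exact hzero y y.2
    have h4 := hxf f
    rw [h3, map_zero] at h4
    linarith
  refine ⟨⟨x, hxY⟩, ?_⟩
  ext g
  obtain ⟨f, hf, -⟩ := exists_extension_norm_eq Y g
  have h5 : f.comp Y.subtypeL = g := by
    ext y
    exact hf y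
  rw [NormedSpace.dual_def, ← h5]
  exact hxf f

end Vale.Agent.Lib.P079
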